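import Mathlib

/-! P235: `c_1(G) ≤ |K| + c_1((G - K) + apex)`. -/

namespace Vale.Agent.Results.P235.ApexReduction

open Finset Classical

/-- length of a walk -/
noncomputable def wlen {V : Type} {G : SimpleGraph V} (l : V → V → ℝ) {u v : V}
    (p : G.Walk u v) : ℝ := (p.darts.map (fun d => l d.fst d.snd)).sum

/-- shortest-path distance for the edge lengths `l` -/
noncomputable def gdist {V : Type} (G : SimpleGraph V) (l : V → V → ℝ) (u v : V) : ℝ :=
  ⨅ p : G.Walk u v, wlen l p

/-- `d` embeds into a finite-dimensional `ℓ_1` space with distortion at most `C` -/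
def Emb {X : Type} (d : X → X → ℝ) (C : ℝ) : Prop :=
  ∃ (I : Type) (_ : Fintype I) (f : X → I → ℝ), ∀ x y,
    d x y ≤ ∑ i, |f x i - f y i| ∧ ∑ i, |f x i - f y i| ≤ C * d x y

/-- `c_1(G) ≤ C` -/
def C1le {V : Type} (G : SimpleGraph V) (C : ℝ) : Prop :=
  ∀ l : V → V → ℝ, (∀ u v, l u v = l v u) → (∀ u v, G.Adj u v → 0 < l u v) → Emb (gdist G l) C

/-- the graph `G - K` with one new vertex `none` joined to all other vertices -/
def apex {V : Type} (G : SimpleGraph V) (K : Finset V) : SimpleGraph (Option {v : V // v ∉ K}) where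
  Adj a b := (∃ u v, a = some u ∧ b = some v ∧ G.Adj u.1 v.1) ∨ (a = none ∧ b ≠ none) ∨
    (a ≠ none ∧ b = none)
  symm := ⟨by
    rintro a b (⟨u, v, h1, h2, h3⟩ | ⟨h1, h2⟩ | ⟨h1, h2⟩)
    · exact Or.inl ⟨v, u, h2, h1, h3.symm⟩
    · exact Or.inr (Or.inr ⟨h2, h1⟩)
    · exact Or.inr (Or.inl ⟨h2, h1⟩)⟩
  loopless := ⟨by
    rintro a (⟨u, v, h1, h2, h3⟩ | ⟨h1, h2⟩ | ⟨h1, h2⟩)
    · rw [h1, Option.some.injEq] at h2
      subst h2
      exact G.loopless.irrefl _ h3
    · exact h2 h1
    · exact h1 h2⟩

section basic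
variable {V : Type} {G : SimpleGraph V} {l : V → V → ℝ}

theorem wlen_nil (u : V) : wlen l (SimpleGraph.Walk.nil : G.Walk u u) = 0 := by simp [wlen]

theorem wlen_cons {u v w : V} (h : G.Adj u v) (p : G.Walk v w) :
    wlen l (SimpleGraph.Walk.cons h p) = l u v + wlen l p := by simp [wlen]

theorem wlen_append {u v w : V} (p : G.Walk u v) (q : G.Walk v w) :
    wlen l (p.append q) = wlen l p + wlen l q := by simp [wlen]

theorem wlen_nonneg (hl : ∀ u v, G.Adj u v → 0 < l u v) {u v : V} (p : G.Walk u v) :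
    0 ≤ wlen l p := by
  induction p with
  | nil => rw [wlen_nil]
  | cons h p ih => rw [wlen_cons]; have := hl _ _ h; linarith

theorem wlen_reverse (hs : ∀ u v, l u v = l v u) {u v : V} (p : G.Walk u v) :
    wlen l p.reverse = wlen l p := by
  induction p with
  | nil => simp [wlen]
  | cons h p ih =>
    rw [SimpleGraph.Walk.reverse_cons, wlen_append, ih, wlen_cons, wlen_cons, wlen_nil, hs]
    ring

theorem gdist_le (hl : ∀ u v, G.Adj u v → 0 < l u v) {u v : V} (p : G.Walk u v) :
    gdist G l u v ≤ wlen l p :=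
  ciInf_le ⟨0, by rintro _ ⟨q, rfl⟩; exact wlen_nonneg hl q⟩ p

theorem gdist_self_le (hl : ∀ u v, G.Adj u v → 0 < l u v) (u : V) : gdist G l u u ≤ 0 := by
  have := gdist_le hl (SimpleGraph.Walk.nil : G.Walk u u)
  rwa [wlen_nil] at this

theorem gdist_adj (hl : ∀ u v, G.Adj u v → 0 < l u v) {u v : V} (h : G.Adj u v) :
    gdist G l u v ≤ l u v := by
  have := gdist_le hl (SimpleGraph.Walk.cons h SimpleGraph.Walk.nil)
  rwa [wlen_cons, wlen_nil, add_zero] at this

theorem le_gdist {u v : V} (hc : Nonempty (G.Walk u v)) {c : ℝ} (h : ∀ p : G.Walk u v, c ≤ wlen l p) :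
    c ≤ gdist G l u v := le_ciInf h

theorem gdist_nonneg (hl : ∀ u v, G.Adj u v → 0 < l u v) (u v : V)
    (hc : Nonempty (G.Walk u v)) : 0 ≤ gdist G l u v := le_gdist hc (fun p => wlen_nonneg hl p)

theorem gdist_tri (hl : ∀ u v, G.Adj u v → 0 < l u v) (u v w : V)
    (hc : Nonempty (G.Walk u v)) (hc' : Nonempty (G.Walk v w)) :
    gdist G l u w ≤ gdist G l u v + gdist G l v w := by
  have h1 : ∀ p : G.Walk u v, gdist G l u w - gdist G l v w ≤ wlen l p := by
    intro p
    have h2 : gdist G l u w - wlen l p ≤ gdist G l v w := by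
      apply le_gdist hc'
      intro q
      have := gdist_le hl (p.append q)
      rw [wlen_append] at this
      linarith
    linarith
  have := le_gdist hc h1
  linarith

theorem gdist_comm (hs : ∀ u v, l u v = l v u) (hl : ∀ u v, G.Adj u v → 0 < l u v) (u v : V)
    (hc : Nonempty (G.Walk u v)) : gdist G l u v = gdist G l v u := by
  obtain ⟨p0⟩ := hc
  apply le_antisymm
  · apply le_gdist ⟨p0.reverse⟩
    intro q
    rw [← wlen_reverse hs q]
    exact gdist_le hl _
  · apply le_gdist ⟨p0⟩
    intro q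
    rw [← wlen_reverse hs q]
    exact gdist_le hl _

theorem gdist_pos [Finite V] (hl : ∀ u v, G.Adj u v → 0 < l u v) (u v : V) (huv : u ≠ v)
    (hc : Nonempty (G.Walk u v)) : 0 < gdist G l u v := by
  have := Fintype.ofFinite V
  let S : Finset (V × V) := univ.filter (fun q => G.Adj q.1 q.2)
  have hS : ∃ m : ℝ, 0 < m ∧ ∀ a b, G.Adj a b → m ≤ l a b := by
    by_cases hne : S.Nonempty
    · refine ⟨S.inf' hne (fun q => l q.1 q.2), ?_, ?_⟩
      · rw [Finset.lt_inf'_iff]
        intro q hq
        exact hl _ _ (by simpa [S] using hq)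
      · intro a b hab
        exact Finset.inf'_le (fun q : V × V => l q.1 q.2) (b := (a, b)) (by simpa [S] using hab)
    · refine ⟨1, one_pos, fun a b hab => ?_⟩
      exact absurd ⟨(a, b), by simpa [S] using hab⟩ hne
  obtain ⟨m, hm, hm2⟩ := hS
  refine lt_of_lt_of_le hm (le_gdist hc ?_)
  intro p
  cases p with
  | nil => exact absurd rfl huv
  | cons h p =>
    rw [wlen_cons]
    have h1 := hm2 _ _ h
    have h2 := wlen_nonneg hl p
    linarith

end basic

section main
variable {V : Type}

/-- distance to `K` -/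
noncomputable def rr (G : SimpleGraph V) (l : V → V → ℝ) (K : Finset V) (hK : K.Nonempty)
    (v : V) : ℝ := K.inf' hK (fun a => gdist G l v a)

/-- edge lengths on the apex graph -/
noncomputable def lo (G : SimpleGraph V) (l : V → V → ℝ) (K : Finset V) (hK : K.Nonempty) :
    Option {v : V // v ∉ K} → Option {v : V // v ∉ K} → ℝ
  | some u, some v => l u.1 v.1
  | some u, none => rr G l K hK u.1
  | none, some v => rr G l K hK v.1
  | none, none => 1

variable {G : SimpleGraph V} {l : V → V → ℝ} {K : Finset V} (hK : K.Nonempty)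
  (hc : ∀ u v, Nonempty (G.Walk u v)) (hs : ∀ u v, l u v = l v u)
  (hl : ∀ u v, G.Adj u v → 0 < l u v)

theorem rr_le (v a : V) (ha : a ∈ K) : rr G l K hK v ≤ gdist G l v a :=
  Finset.inf'_le (fun a => gdist G l v a) ha

theorem rr_mem (v : V) : ∃ a ∈ K, rr G l K hK v = gdist G l v a :=
  Finset.exists_mem_eq_inf' hK _

include hc hl in
theorem rr_lip (u v : V) : rr G l K hK v ≤ gdist G l v u + rr G l K hK u := by
  obtain ⟨a, ha, h⟩ := rr_mem (G := G) (l := l) hK u
  rw [h]
  exact (rr_le hK v a ha).trans (gdist_tri hl v u a (hc _ _) (hc _ _))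

include hc hl in
theorem rr_nonneg (v : V) : 0 ≤ rr G l K hK v := by
  obtain ⟨a, ha, h⟩ := rr_mem (G := G) (l := l) hK v
  rw [h]; exact gdist_nonneg hl _ _ (hc _ _)

theorem adj_some (u v : {v : V // v ∉ K}) (h : (apex G K).Adj (some u) (some v)) :
    G.Adj u.1 v.1 := by
  rcases h with ⟨a, b, h1, h2, h3⟩ | ⟨h1, _⟩ | ⟨_, h2⟩
  · rw [Option.some.injEq] at h1 h2; subst h1; subst h2; exact h3
  · simp at h1
  · simp at h2

theorem adj_none (u : {v : V // v ∉ K}) : (apex G K).Adj (some u) none :=
  Or.inr (Or.inr ⟨by simp, rfl⟩)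

theorem not_adj_none : ¬ (apex G K).Adj (none : Option {v : V // v ∉ K}) none :=
  (apex G K).loopless.irrefl none

include hc hs hl in
theorem lower (z t : Option {v : V // v ∉ K}) (p : (apex G K).Walk z t) :
    ∀ v : {v : V // v ∉ K}, t = some v →
      (match z with
        | none => rr G l K hK v.1
        | some u => min (gdist G l u.1 v.1) (rr G l K hK u.1 + rr G l K hK v.1)) ≤
        wlen (lo G l K hK) p := by
  induction p with
  | @nil u =>
    intro v hv
    subst hv
    rw [wlen_nil]
    exact (min_le_left _ _).trans (gdist_self_le hl _)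
  | @cons a b c h p ih =>
    intro v hv
    rw [wlen_cons]
    have ih' := ih v hv
    have n0 := rr_nonneg (l := l) hK hc hl v.1
    rcases a with _ | u <;> rcases b with _ | u'
    · exact absurd h not_adj_none
    · simp only [lo] at ih' ⊢
      have h1 := rr_lip (l := l) hK hc hl u'.1 v.1
      rw [gdist_comm hs hl _ _ (hc _ _)] at h1
      have h2 := rr_nonneg (l := l) hK hc hl u'.1
      rcases min_choice (gdist G l u'.1 v.1) (rr G l K hK u'.1 + rr G l K hK v.1) with h3 | h3 <;>
        rw [h3] at ih' <;> linarith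
    · simp only [lo] at ih' ⊢
      exact (min_le_right _ _).trans (by linarith)
    · simp only [lo] at ih' ⊢
      have hadj := adj_some u u' h
      have h0 := gdist_adj hl hadj
      have h1 := gdist_tri hl u.1 u'.1 v.1 (hc _ _) (hc _ _)
      have h2 := rr_lip (l := l) hK hc hl u'.1 u.1
      rcases min_choice (gdist G l u'.1 v.1) (rr G l K hK u'.1 + rr G l K hK v.1) with h3 | h3 <;>
        rw [h3] at ih'
      · exact (min_le_left _ _).trans (by linarith)
      · exact (min_le_right _ _).trans (by linarith)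

theorem lo_symm (hs : ∀ u v, l u v = l v u) (a b : Option {v : V // v ∉ K}) :
    lo G l K hK a b = lo G l K hK b a := by
  rcases a with _ | u <;> rcases b with _ | v <;> simp [lo, hs]

include hc hl in
theorem lo_pos [Finite V] (a b : Option {v : V // v ∉ K}) (h : (apex G K).Adj a b) :
    0 < lo G l K hK a b := by
  have key : ∀ u : {v : V // v ∉ K}, 0 < rr G l K hK u.1 := by
    intro u
    obtain ⟨a, ha, h⟩ := rr_mem (G := G) (l := l) hK u.1
    rw [h]
    exact gdist_pos hl _ _ (fun e => u.2 (e ▸ ha)) (hc _ _)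
  rcases a with _ | u <;> rcases b with _ | v
  · exact absurd h not_adj_none
  · exact key v
  · exact key u
  · exact hl _ _ (adj_some u v h)

include hc hs hl in
theorem upper [Finite V] (u t : V) (p : G.Walk u t) : ∀ (v : {v : V // v ∉ K}) (hu : u ∉ K),
    t = v.1 → gdist (apex G K) (lo G l K hK) (some ⟨u, hu⟩) (some v) ≤ wlen l p := by
  have hlo := lo_pos (G := G) (l := l) hK hc hl
  induction p with
  | @nil u =>
    intro v hu hv
    subst hv
    rw [wlen_nil]
    exact gdist_self_le hlo _
  | @cons u u' c h p ih =>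
    intro v hu hv
    rw [wlen_cons]
    by_cases hu' : u' ∈ K
    · have h1 : gdist (apex G K) (lo G l K hK) (some ⟨u, hu⟩) (some v) ≤
          rr G l K hK u + rr G l K hK v.1 := by
        have h2 := gdist_tri hlo (some ⟨u, hu⟩) none (some v)
          ⟨SimpleGraph.Walk.cons (adj_none _) SimpleGraph.Walk.nil⟩
          ⟨SimpleGraph.Walk.cons (adj_none _).symm SimpleGraph.Walk.nil⟩
        have h3 := gdist_adj hlo (adj_none (G := G) ⟨u, hu⟩)
        have h4 := gdist_adj hlo (adj_none (G := G) v).symm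
        simp only [lo] at h3 h4
        linarith
      have h5 := (rr_le (G := G) (l := l) hK u u' hu').trans (gdist_adj hl h)
      have h6 := rr_le (G := G) (l := l) hK v.1 u' hu'
      rw [gdist_comm hs hl _ _ (hc _ _)] at h6
      subst hv
      have h7 := gdist_le hl p
      linarith
    · have h1 := ih v hu' hv
      have hadj : (apex G K).Adj (some ⟨u, hu⟩) (some ⟨u', hu'⟩) :=
        Or.inl ⟨⟨u, hu⟩, ⟨u', hu'⟩, rfl, rfl, h⟩
      have h2 := gdist_tri hlo (some ⟨u, hu⟩) (some ⟨u', hu'⟩) (some v)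
        ⟨SimpleGraph.Walk.cons hadj SimpleGraph.Walk.nil⟩
        ⟨SimpleGraph.Walk.cons (adj_none _)
          (SimpleGraph.Walk.cons (adj_none _).symm SimpleGraph.Walk.nil)⟩
      have h3 := gdist_adj hlo hadj
      simp only [lo] at h3
      linarith

end main

/-- `c_1(G) ≤ |K| + c_1((G - K) + apex)` for every connected graph `G` and every nonempty set `K`
of vertices. -/
theorem result {V : Type} [Finite V] (G : SimpleGraph V) (hG : G.Connected) (K : Finset V)
    (hK : K.Nonempty) (D : ℝ) (hD0 : 0 ≤ D) (hD : C1le (apex G K) D) :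
    C1le G (K.card + D) := by
  intro l hs hl
  have hc : ∀ u v, Nonempty (G.Walk u v) := fun u v => hG.preconnected u v
  have hlo := lo_pos (G := G) (l := l) hK hc hl
  obtain ⟨I, hI, g, hg⟩ := hD (lo G l K hK) (lo_symm hK hs) hlo
  let z : V → Option {v : V // v ∉ K} := fun v => if h : v ∉ K then some ⟨v, h⟩ else none
  let F : V → ({a // a ∈ K} ⊕ I) → ℝ := fun v =>
    Sum.elim (fun a => gdist G l v a.1) (fun i => g (z v) i)
  have hcomm : ∀ u v, gdist G l u v = gdist G l v u := fun u v => gdist_comm hs hl u v (hc _ _)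
  have htri : ∀ u v w, gdist G l u w ≤ gdist G l u v + gdist G l v w :=
    fun u v w => gdist_tri hl u v w (hc _ _) (hc _ _)
  have hnn : ∀ u v, 0 ≤ gdist G l u v := fun u v => gdist_nonneg hl u v (hc _ _)
  have hself : ∀ u, gdist G l u u = 0 := fun u => le_antisymm (gdist_self_le hl u) (hnn u u)
  have hz : ∀ u v, gdist (apex G K) (lo G l K hK) (z u) (z v) ≤ gdist G l u v := by
    intro u v
    by_cases hu : u ∈ K <;> by_cases hv : v ∈ K
    · have e1 : z u = none := by simp [z, hu]
      have e2 : z v = none := by simp [z, hv]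
      rw [e1, e2]
      exact (gdist_self_le hlo _).trans (hnn u v)
    · have e1 : z u = none := by simp [z, hu]
      have e2 : z v = some ⟨v, hv⟩ := by simp [z, hv]
      rw [e1, e2]
      have h4 := gdist_adj hlo (adj_none (G := G) ⟨v, hv⟩).symm
      simp only [lo] at h4
      refine h4.trans ?_
      rw [hcomm]
      exact rr_le hK v u hu
    · have e1 : z u = some ⟨u, hu⟩ := by simp [z, hu]
      have e2 : z v = none := by simp [z, hv]
      rw [e1, e2]
      have h4 := gdist_adj hlo (adj_none (G := G) ⟨u, hu⟩)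
      simp only [lo] at h4
      exact h4.trans (rr_le hK u v hv)
    · have e1 : z u = some ⟨u, hu⟩ := by simp [z, hu]
      have e2 : z v = some ⟨v, hv⟩ := by simp [z, hv]
      rw [e1, e2]
      apply le_gdist (hc _ _)
      intro p
      exact upper hK hc hs hl u v p ⟨v, hv⟩ hu rfl
  refine ⟨{a // a ∈ K} ⊕ I, inferInstance, F, ?_⟩
  intro x y
  have hsum : ∑ i, |F x i - F y i| = (∑ a : {a // a ∈ K}, |gdist G l x a.1 - gdist G l y a.1|) +
      ∑ i, |g (z x) i - g (z y) i| := by
    rw [Fintype.sum_sum_type]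
    rfl
  rw [hsum]
  obtain ⟨hg1, hg2⟩ := hg (z x) (z y)
  have hgnn : 0 ≤ ∑ i, |g (z x) i - g (z y) i| := Finset.sum_nonneg fun _ _ => abs_nonneg _
  have hcoord : ∀ a : {a // a ∈ K}, |gdist G l x a.1 - gdist G l y a.1| ≤
      ∑ a : {a // a ∈ K}, |gdist G l x a.1 - gdist G l y a.1| := fun a =>
    Finset.single_le_sum (f := fun a : {a // a ∈ K} => |gdist G l x a.1 - gdist G l y a.1|)
      (fun _ _ => abs_nonneg _) (Finset.mem_univ a)
  constructor
  · by_cases hx : x ∈ K
    · have h1 := hcoord ⟨x, hx⟩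
      simp only at h1
      rw [hself, zero_sub, abs_neg, abs_of_nonneg (hnn y x), hcomm] at h1
      linarith
    by_cases hy : y ∈ K
    · have h1 := hcoord ⟨y, hy⟩
      simp only at h1
      rw [hself, sub_zero, abs_of_nonneg (hnn x y)] at h1
      linarith
    have e1 : z x = some ⟨x, hx⟩ := by simp [z, hx]
    have e2 : z y = some ⟨y, hy⟩ := by simp [z, hy]
    have hlow : min (gdist G l x y) (rr G l K hK x + rr G l K hK y) ≤
        gdist (apex G K) (lo G l K hK) (z x) (z y) := by
      rw [e1, e2]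
      apply le_gdist ⟨SimpleGraph.Walk.cons (adj_none _)
          (SimpleGraph.Walk.cons (adj_none _).symm SimpleGraph.Walk.nil)⟩
      intro p
      exact lower hK hc hs hl _ _ p ⟨y, hy⟩ rfl
    obtain ⟨a, ha, har⟩ := rr_mem (G := G) (l := l) hK x
    obtain ⟨b, hb, hbr⟩ := rr_mem (G := G) (l := l) hK y
    have h1 := hcoord ⟨a, ha⟩
    have h2 := hcoord ⟨b, hb⟩
    simp only at h1 h2
    have h3 := neg_abs_le (gdist G l x a - gdist G l y a)
    have h4 := le_abs_self (gdist G l x b - gdist G l y b)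
    have h5 := htri x a y
    have h6 := htri x b y
    rw [hcomm a y] at h5
    rw [hcomm b y] at h6
    rcases min_choice (gdist G l x y) (rr G l K hK x + rr G l K hK y) with h7 | h7 <;>
      rw [h7] at hlow
    · have : 0 ≤ ∑ a : {a // a ∈ K}, |gdist G l x a.1 - gdist G l y a.1| :=
        Finset.sum_nonneg fun _ _ => abs_nonneg _
      linarith
    · rw [har, hbr] at hlow
      rcases le_total (gdist G l x a) (gdist G l y b) with h8 | h8 <;> linarith
  · have h1 : ∑ a : {a // a ∈ K}, |gdist G l x a.1 - gdist G l y a.1| ≤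
        ∑ _a : {a // a ∈ K}, gdist G l x y := by
      apply Finset.sum_le_sum
      intro a _
      rw [abs_le]
      have h2 := htri x y a.1
      have h3 := htri y x a.1
      rw [hcomm y x] at h3
      constructor <;> linarith
    rw [Finset.sum_const, Finset.card_univ, Fintype.card_coe, nsmul_eq_mul] at h1
    have h2 : D * gdist (apex G K) (lo G l K hK) (z x) (z y) ≤ D * gdist G l x y :=
      mul_le_mul_of_nonneg_left (hz x y) hD0
    rw [add_mul]
    linarith

end Vale.Agent.Results.P235.ApexReduction
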