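import Mathlib
import Vale.Agent.H7.P235.Signs

/-! P235: graphs with a small feedback vertex set embed with constant distortion. -/

namespace Vale.Agent.Results.P235.FeedbackVertex

open Finset Classical

/-- length of a walk -/
noncomputable def wlen {V : Type} {G : SimpleGraph V} (l : V → V → ℝ) {u v : V}
    (p : G.Walk u v) : ℝ := (p.darts.map (fun d => l d.fst d.snd)).sum

/-- shortest-path distance for the edge lengths `l` -/
noncomputable def gdist {V : Type} (G : SimpleGraph V) (l : V → V → ℝ) (u v : V) : ℝ :=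
  ⨅ p : G.Walk u v, wlen l p

/-- `d` embeds into a finite-dimensional `ℓ_1` space with distortion at most `C` -/
def Emb {X : Type} (d : X → X → ℝ) (C : ℝ) : Prop :=
  ∃ (I : Type) (_ : Fintype I) (f : X → I → ℝ), ∀ x y,
    d x y ≤ ∑ i, |f x i - f y i| ∧ ∑ i, |f x i - f y i| ≤ C * d x y

/-- `c_1(G) ≤ C` -/
def C1le {V : Type} (G : SimpleGraph V) (C : ℝ) : Prop :=
  ∀ l : V → V → ℝ, (∀ u v, l u v = l v u) → (∀ u v, G.Adj u v → 0 < l u v) → Emb (gdist G l) C

section basic
variable {V : Type} {G : SimpleGraph V} {l : V → V → ℝ}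

theorem wlen_nil (u : V) : wlen l (SimpleGraph.Walk.nil : G.Walk u u) = 0 := by simp [wlen]

theorem wlen_cons {u v w : V} (h : G.Adj u v) (p : G.Walk v w) :
    wlen l (SimpleGraph.Walk.cons h p) = l u v + wlen l p := by simp [wlen]

theorem wlen_append {u v w : V} (p : G.Walk u v) (q : G.Walk v w) :
    wlen l (p.append q) = wlen l p + wlen l q := by simp [wlen]

theorem wlen_nonneg (hl : ∀ u v, G.Adj u v → 0 < l u v) {u v : V} (p : G.Walk u v) :
    0 ≤ wlen l p := by
  induction p with
  | nil => rw [wlen_nil]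
  | cons h p ih => rw [wlen_cons]; have := hl _ _ h; linarith

theorem wlen_reverse (hs : ∀ u v, l u v = l v u) {u v : V} (p : G.Walk u v) :
    wlen l p.reverse = wlen l p := by
  induction p with
  | nil => simp [wlen]
  | cons h p ih =>
    rw [SimpleGraph.Walk.reverse_cons, wlen_append, ih, wlen_cons, wlen_cons, wlen_nil, hs]
    ring

theorem gdist_le (hl : ∀ u v, G.Adj u v → 0 < l u v) {u v : V} (p : G.Walk u v) :
    gdist G l u v ≤ wlen l p :=
  ciInf_le ⟨0, by rintro _ ⟨q, rfl⟩; exact wlen_nonneg hl q⟩ p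

theorem gdist_self_le (hl : ∀ u v, G.Adj u v → 0 < l u v) (u : V) : gdist G l u u ≤ 0 := by
  have := gdist_le hl (SimpleGraph.Walk.nil : G.Walk u u)
  rwa [wlen_nil] at this

theorem gdist_adj (hl : ∀ u v, G.Adj u v → 0 < l u v) {u v : V} (h : G.Adj u v) :
    gdist G l u v ≤ l u v := by
  have := gdist_le hl (SimpleGraph.Walk.cons h SimpleGraph.Walk.nil)
  rwa [wlen_cons, wlen_nil, add_zero] at this

theorem le_gdist {u v : V} (hc : Nonempty (G.Walk u v)) {c : ℝ} (h : ∀ p : G.Walk u v, c ≤ wlen l p) :
    c ≤ gdist G l u v := le_ciInf h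

theorem gdist_nonneg (hl : ∀ u v, G.Adj u v → 0 < l u v) (u v : V)
    (hc : Nonempty (G.Walk u v)) : 0 ≤ gdist G l u v := le_gdist hc (fun p => wlen_nonneg hl p)

theorem gdist_tri (hl : ∀ u v, G.Adj u v → 0 < l u v) (u v w : V)
    (hc : Nonempty (G.Walk u v)) (hc' : Nonempty (G.Walk v w)) :
    gdist G l u w ≤ gdist G l u v + gdist G l v w := by
  have h1 : ∀ p : G.Walk u v, gdist G l u w - gdist G l v w ≤ wlen l p := by
    intro p
    have h2 : gdist G l u w - wlen l p ≤ gdist G l v w := by
      apply le_gdist hc'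
      intro q
      have := gdist_le hl (p.append q)
      rw [wlen_append] at this
      linarith
    linarith
  have := le_gdist hc h1
  linarith

theorem gdist_comm (hs : ∀ u v, l u v = l v u) (hl : ∀ u v, G.Adj u v → 0 < l u v) (u v : V)
    (hc : Nonempty (G.Walk u v)) : gdist G l u v = gdist G l v u := by
  obtain ⟨p0⟩ := hc
  apply le_antisymm
  · apply le_gdist ⟨p0.reverse⟩
    intro q
    rw [← wlen_reverse hs q]
    exact gdist_le hl _
  · apply le_gdist ⟨p0⟩
    intro q
    rw [← wlen_reverse hs q]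
    exact gdist_le hl _

theorem gdist_pos [Finite V] (hl : ∀ u v, G.Adj u v → 0 < l u v) (u v : V) (huv : u ≠ v)
    (hc : Nonempty (G.Walk u v)) : 0 < gdist G l u v := by
  have := Fintype.ofFinite V
  let S : Finset (V × V) := univ.filter (fun q => G.Adj q.1 q.2)
  have hS : ∃ m : ℝ, 0 < m ∧ ∀ a b, G.Adj a b → m ≤ l a b := by
    by_cases hne : S.Nonempty
    · refine ⟨S.inf' hne (fun q => l q.1 q.2), ?_, ?_⟩
      · rw [Finset.lt_inf'_iff]
        intro q hq
        exact hl _ _ (by simpa [S] using hq)
      · intro a b hab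
        exact Finset.inf'_le (fun q : V × V => l q.1 q.2) (b := (a, b)) (by simpa [S] using hab)
    · refine ⟨1, one_pos, fun a b hab => ?_⟩
      exact absurd ⟨(a, b), by simpa [S] using hab⟩ hne
  obtain ⟨m, hm, hm2⟩ := hS
  refine lt_of_lt_of_le hm (le_gdist hc ?_)
  intro p
  cases p with
  | nil => exact absurd rfl huv
  | cons h p =>
    rw [wlen_cons]
    have h1 := hm2 _ _ h
    have h2 := wlen_nonneg hl p
    linarith

end basic

section main
variable {V : Type}

/-- distance to `K` -/
noncomputable def rr (G : SimpleGraph V) (l : V → V → ℝ) (K : Finset V) (hK : K.Nonempty)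
    (v : V) : ℝ := K.inf' hK (fun a => gdist G l v a)

variable {G : SimpleGraph V} {l : V → V → ℝ} {K : Finset V} (hK : K.Nonempty)
  (hc : ∀ u v, Nonempty (G.Walk u v)) (hs : ∀ u v, l u v = l v u)
  (hl : ∀ u v, G.Adj u v → 0 < l u v)

theorem rr_le (v a : V) (ha : a ∈ K) : rr G l K hK v ≤ gdist G l v a :=
  Finset.inf'_le (fun a => gdist G l v a) ha

theorem rr_mem (v : V) : ∃ a ∈ K, rr G l K hK v = gdist G l v a :=
  Finset.exists_mem_eq_inf' hK _

include hc hl in
theorem rr_lip (u v : V) : rr G l K hK v ≤ gdist G l v u + rr G l K hK u := by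
  obtain ⟨a, ha, h⟩ := rr_mem (G := G) (l := l) hK u
  rw [h]
  exact (rr_le hK v a ha).trans (gdist_tri hl v u a (hc _ _) (hc _ _))

include hc hl in
theorem rr_nonneg (v : V) : 0 ≤ rr G l K hK v := by
  obtain ⟨a, ha, h⟩ := rr_mem (G := G) (l := l) hK v
  rw [h]; exact gdist_nonneg hl _ _ (hc _ _)

end main

open Vale.Agent.H7.P235 in
/-- `c_1(G) ≤ |K| + 8` for every connected graph `G` and every nonempty set `K` of vertices such
that `G - K` is a forest, where the forest is described by an ordering `ord` of the vertices in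
which every vertex outside `K` has at most one earlier neighbour outside `K`. -/
theorem result {V : Type} [Finite V] (G : SimpleGraph V) (hG : G.Connected) (K : Finset V)
    (hK : K.Nonempty) (ord : V → ℕ) (hord : Function.Injective ord)
    (hfor : ∀ v, v ∉ K → ∀ u, u ∉ K → ∀ u', u' ∉ K → G.Adj u v → G.Adj u' v → ord u < ord v →
      ord u' < ord v → u = u') :
    C1le G (K.card + 8) := by
  intro l hs hl
  have := Fintype.ofFinite V
  have hc : ∀ u v, Nonempty (G.Walk u v) := fun u v => hG.preconnected u v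
  have hcomm : ∀ u v, gdist G l u v = gdist G l v u := fun u v => gdist_comm hs hl u v (hc _ _)
  have htri : ∀ u v w, gdist G l u w ≤ gdist G l u v + gdist G l v w :=
    fun u v w => gdist_tri hl u v w (hc _ _) (hc _ _)
  have hnn : ∀ u v, 0 ≤ gdist G l u v := fun u v => gdist_nonneg hl u v (hc _ _)
  have hself : ∀ u, gdist G l u u = 0 := fun u => le_antisymm (gdist_self_le hl u) (hnn u u)
  let r : V → ℝ := rr G l K hK
  have hr0 : ∀ v, 0 ≤ r v := fun v => rr_nonneg hK hc hl v
  have hrK : ∀ v ∈ K, r v = 0 := fun v hv =>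
    le_antisymm ((rr_le hK v v hv).trans (hself v).le) (hr0 v)
  have hrp : ∀ v, v ∉ K → 0 < r v := by
    intro v hv
    obtain ⟨a, ha, h⟩ := rr_mem (G := G) (l := l) hK v
    change 0 < rr G l K hK v
    rw [h]
    exact gdist_pos hl _ _ (fun e => hv (e ▸ ha)) (hc _ _)
  have hlip : ∀ u v, r v ≤ gdist G l v u + r u := fun u v => rr_lip hK hc hl u v
  obtain ⟨Ω, hΩ, μ, h, hμ0, hμ1, hh, hE1, hE2⟩ := signs (V := V) G.Adj (fun u v e => e.symm) l
    (gdist G l) r (univ.filter (fun v => v ∉ K)) (fun v hv => hrp v (by simpa using hv)) hs hcomm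
    hl hnn hself
    (fun u w x hwx => (htri u w x).trans (by have := gdist_adj hl hwx; linarith))
    (fun w x hwx => by have := gdist_adj hl hwx; have := hlip x w; linarith)
    (fun u w => by have := hlip u w; rw [hcomm w u] at this; linarith) ord hord
    (fun v hv u hu u' hu' h1 h2 h3 h4 => hfor v (by simpa using hv) u (by simpa using hu) u'
      (by simpa using hu') h1 h2 h3 h4) (univ.filter (fun v => v ∉ K)) (Finset.Subset.refl _)
  let N : V → V → ℝ := fun u v => ∑ ω, |μ ω * (r u * h u ω) - μ ω * (r v * h v ω)|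
  have hN : ∀ u v, N u v = |r u - r v| + min (r u) (r v) * (1 - EE μ h u v) := fun u v =>
    norm_formula μ h hμ0 hμ1 hh u v (r u) (r v) (hr0 u) (hr0 v)
  have hNtri : ∀ u v w, N u w ≤ N u v + N v w := by
    intro u v w
    change _ ≤ (∑ ω, _) + ∑ ω, _
    rw [← Finset.sum_add_distrib]
    exact Finset.sum_le_sum fun ω _ => abs_sub_le _ _ _
  have hNself : ∀ u, N u u = 0 := by intro u; simp [N]
  have hNedge : ∀ u v, G.Adj u v → N u v ≤ 2 * l u v := by
    intro u v huv
    have hlp := hl u v huv
    have h1 : |r u - r v| ≤ l u v := by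
      have h2 := hlip u v
      have h3 := hlip v u
      have h4 := gdist_adj hl huv
      rw [hcomm v u] at h2
      rw [abs_le]
      constructor <;> linarith
    have h5 : min (r u) (r v) * (1 - EE μ h u v) ≤ l u v := by
      by_cases hu : u ∈ K
      · rw [hrK u hu, min_eq_left (hr0 v), zero_mul]; exact hlp.le
      by_cases hv : v ∈ K
      · rw [hrK v hv, min_eq_right (hr0 u), zero_mul]; exact hlp.le
      have hm : 0 < min (r u) (r v) := lt_min (hrp u hu) (hrp v hv)
      rw [hE2 u (by simpa using hu) v (by simpa using hv) huv.ne huv]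
      have e : min (r u) (r v) * (1 - 1 / (1 + l u v / min (r u) (r v))) =
          l u v * (min (r u) (r v) / (min (r u) (r v) + l u v)) := by
        field_simp
        ring
      rw [e]
      have : min (r u) (r v) / (min (r u) (r v) + l u v) ≤ 1 := by
        rw [div_le_one (by linarith)]; linarith
      exact (mul_le_mul_of_nonneg_left this hlp.le).trans (mul_one _).le
    rw [hN]
    linarith
  have hNwalk : ∀ (u v : V) (p : G.Walk u v), N u v ≤ 2 * wlen l p := by
    intro u v p
    induction p with
    | @nil u => rw [hNself, wlen_nil, mul_zero]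
    | @cons a b c hab p ih =>
      rw [wlen_cons]
      have := hNtri a b c
      have := hNedge a b hab
      linarith
  have hNup : ∀ u v, N u v ≤ 2 * gdist G l u v := by
    intro u v
    have : N u v / 2 ≤ gdist G l u v := le_gdist (hc u v) (fun p => by
      have := hNwalk u v p
      linarith)
    linarith
  let F : V → ({a // a ∈ K} ⊕ Ω) → ℝ := fun v =>
    Sum.elim (fun a => gdist G l v a.1) (fun ω => 4 * (μ ω * (r v * h v ω)))
  refine ⟨{a // a ∈ K} ⊕ Ω, inferInstance, F, ?_⟩
  intro x y
  have hsum : ∑ i, |F x i - F y i| = (∑ a : {a // a ∈ K}, |gdist G l x a.1 - gdist G l y a.1|) +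
      4 * N x y := by
    rw [Fintype.sum_sum_type]
    congr 1
    change _ = 4 * ∑ ω, _
    rw [Finset.mul_sum]
    apply Finset.sum_congr rfl
    intro ω _
    change |4 * (μ ω * (r x * h x ω)) - 4 * (μ ω * (r y * h y ω))| = _
    rw [← mul_sub, abs_mul, abs_of_pos (by norm_num : (0:ℝ) < 4)]
  rw [hsum]
  have hcoord : ∀ a : {a // a ∈ K}, |gdist G l x a.1 - gdist G l y a.1| ≤
      ∑ a : {a // a ∈ K}, |gdist G l x a.1 - gdist G l y a.1| := fun a =>
    Finset.single_le_sum (f := fun a : {a // a ∈ K} => |gdist G l x a.1 - gdist G l y a.1|)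
      (fun _ _ => abs_nonneg _) (Finset.mem_univ a)
  have hsf0 : 0 ≤ ∑ a : {a // a ∈ K}, |gdist G l x a.1 - gdist G l y a.1| :=
    Finset.sum_nonneg fun _ _ => abs_nonneg _
  have hD := hnn x y
  constructor
  · have hsf : gdist G l x y - 2 * min (r x) (r y) ≤
        ∑ a : {a // a ∈ K}, |gdist G l x a.1 - gdist G l y a.1| := by
      obtain ⟨a, ha, har⟩ := rr_mem (G := G) (l := l) hK x
      obtain ⟨b, hb, hbr⟩ := rr_mem (G := G) (l := l) hK y
      have h1 := hcoord ⟨a, ha⟩
      have h2 := hcoord ⟨b, hb⟩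
      simp only at h1 h2
      have h3 := neg_abs_le (gdist G l x a - gdist G l y a)
      have h4 := le_abs_self (gdist G l x b - gdist G l y b)
      have h5 := htri x a y
      have h6 := htri x b y
      rw [hcomm a y] at h5
      rw [hcomm b y] at h6
      change gdist G l x y - 2 * min (rr G l K hK x) (rr G l K hK y) ≤ _
      rcases min_choice (rr G l K hK x) (rr G l K hK y) with h7 | h7 <;> rw [h7]
      · rw [har]; linarith
      · rw [hbr]; linarith
    have hN0 : 0 ≤ N x y := Finset.sum_nonneg fun _ _ => abs_nonneg _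
    by_cases hx : x ∈ K
    · rw [hrK x hx, min_eq_left (hr0 y)] at hsf; linarith
    by_cases hy : y ∈ K
    · rw [hrK y hy, min_eq_right (hr0 x)] at hsf; linarith
    have hE := hE1 x (by simpa using hx) y (by simpa using hy)
    have hNl : min (r x) (r y) * (1 - EE μ h x y) ≤ N x y := by
      rw [hN]; have := abs_nonneg (r x - r y); linarith
    have hm : 0 < min (r x) (r y) := lt_min (hrp x hx) (hrp y hy)
    generalize min (r x) (r y) = m at *
    generalize EE μ h x y = E at *
    generalize gdist G l x y = D at *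
    have h1 : m * (1 - m / (m + D)) ≤ m * (1 - E) :=
      mul_le_mul_of_nonneg_left (by linarith) hm.le
    have h2 : m * (1 - m / (m + D)) = m * D / (m + D) := by
      have : m + D ≠ 0 := by linarith
      field_simp
      ring
    rcases le_total D (3 * m) with h3 | h3
    · have h4 : D / 4 ≤ m * D / (m + D) := by
        rw [div_le_div_iff₀ (by norm_num) (by linarith)]
        nlinarith
      linarith
    · have h4 : m / 2 ≤ m * D / (m + D) := by
        rw [div_le_div_iff₀ (by norm_num) (by linarith)]
        nlinarith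
      linarith
  · have h1 : ∑ a : {a // a ∈ K}, |gdist G l x a.1 - gdist G l y a.1| ≤
        ∑ _a : {a // a ∈ K}, gdist G l x y := by
      apply Finset.sum_le_sum
      intro a _
      rw [abs_le]
      have h2 := htri x y a.1
      have h3 := htri y x a.1
      rw [hcomm y x] at h3
      constructor <;> linarith
    rw [Finset.sum_const, Finset.card_univ, Fintype.card_coe, nsmul_eq_mul] at h1
    have h2 := hNup x y
    rw [add_mul]
    linarith

end Vale.Agent.Results.P235.FeedbackVertex
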